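import Vale.Agent.P263.FR.H285.Cover
import Mathlib.Data.Nat.Choose.Lucas
import Mathlib.Algebra.BigOperators.Intervals

/-!
# P263, V5-E3: the Cartan identity for the squares of `w^a z`

`cup_wz` : `(wz) ∪_j (wz) ~ w (z ∪_(j-1) z) + w^2 (z ∪_j z)`.
`cup_pwz` : the squares of `w^a z`.
`cartan` : `∑_(i < 2^s-1) w^i (z ∪_i z) ~ ∑_(k < s) u_k ∪_(2^(k+1)-2) u_k`, `u_k = w^(2^k-1) z`.
-/

open Finset

namespace Vale.Agent.P263.FR.H285

open Vale.Agent.P263.S Vale.Agent.P263.E Vale.Agent.P263.TJ Vale.Agent.P263.KJ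

variable {X : SS} {w z : Cc X}

/-- cohomologous cochains -/
def Chh (x y : Cc X) : Prop := ∃ c : Cc X, x + y = Cc.d c

theorem Chh.refl (x : Cc X) : Chh x x := ⟨0, by rw [cc_add_self, d_zero]⟩

theorem Chh.of_eq {x y : Cc X} (h : x = y) : Chh x y := h ▸ Chh.refl x

theorem Chh.symm {x y : Cc X} (h : Chh x y) : Chh y x := by
  obtain ⟨c, hc⟩ := h; exact ⟨c, by rw [add_comm, hc]⟩

theorem Chh.trans {x y t : Cc X} (h : Chh x y) (h' : Chh y t) : Chh x t := by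
  obtain ⟨c, hc⟩ := h
  obtain ⟨c', hc'⟩ := h'
  refine ⟨c + c', ?_⟩
  rw [d_add, ← hc, ← hc']
  have e := cc_add_self y
  calc x + t = x + t + (y + y) := by rw [e, add_zero]
    _ = _ := by abel

theorem Chh.add {x y t u : Cc X} (h : Chh x y) (h' : Chh t u) : Chh (x + t) (y + u) := by
  obtain ⟨c, hc⟩ := h
  obtain ⟨c', hc'⟩ := h'
  refine ⟨c + c', ?_⟩
  rw [d_add, ← hc, ← hc']
  abel

theorem Chh.sum {ι : Type} (s : Finset ι) (f g : ι → Cc X) (h : ∀ i ∈ s, Chh (f i) (g i)) :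
    Chh (∑ i ∈ s, f i) (∑ i ∈ s, g i) := by
  classical
  induction s using Finset.induction_on with
  | empty => exact Chh.refl _
  | insert a s ha ih =>
    rw [sum_insert ha, sum_insert ha]
    exact (h a (mem_insert_self _ _)).add (ih fun i hi => h i (mem_insert_of_mem hi))

theorem Chh.cup_left {x y : Cc X} (hw : Cc.d w = 0) (h : Chh x y) :
    Chh (Cc.cup 1 w x) (Cc.cup 1 w y) := by
  obtain ⟨c, hc⟩ := h
  refine ⟨Cc.cup 1 w c, ?_⟩
  rw [← cup_add_right, hc, d_cup_one, hw, cup_zero_left, zero_add]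

theorem Chh.coh {x y : Cc X} (h : Chh x y) : (Cc.cupC X).Coh x y := h

/-- `(wz) ∪_j (wz) ~ w (z ∪_(j-1) z) + w^2 (z ∪_j z)` -/
theorem cup_wz (h1 : Cc.IsDeg 1 w) (hw : Cc.d w = 0) (hz : Cc.d z = 0) (i : ℕ) :
    Chh (Cc.cup (i + 1) (Cc.cup 1 w z) (Cc.cup 1 w z))
      (Cc.cup 1 w (Cc.cup i z z) + Cc.cup 1 w (Cc.cup 1 w (Cc.cup (i + 1) z z))) := by
  have hC := cl_cov h1 hw
  have hwz : Cc.d (Cc.cup 1 w z) = 0 := by
    rw [d_cup_one, hw, hz, cup_zero_left, cup_zero_right, add_zero]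
  -- upstairs
  obtain ⟨z', hz'⟩ : ∃ z', z' = Cc.pull (covD w hw).pr z := ⟨_, rfl⟩
  have dz' : Cc.d z' = 0 := by rw [hz', ← pull_d, hz]; rfl
  have fz' : Cc.pull (covD w hw).fl z' = z' := by rw [hz', pull_fl_pr]
  obtain ⟨e, he⟩ : ∃ e, e = Cc.cup 1 (covS w hw) z' := ⟨_, rfl⟩
  have de : Cc.d e = Cc.pull (covD w hw).pr (Cc.cup 1 w z) := by
    rw [he, d_cup_one, dz', cup_zero_right, add_zero, pull_cup, hC.pull_w, hz']
  have fe : Cc.pull (covD w hw).fl e = e + z' := by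
    rw [he, pull_cup, hC.fl_s, fz', cup_add_left, one_cup]
  have sq (j : ℕ) : Cc.d (Cc.cup j z' z') = 0 := by
    have h2 : Cc.d (Cc.cup j z' z') = Cc.cup j (Cc.d z') z' + Cc.cup j z' (Cc.d z') :=
      CupC.d_cup_self (Cc.cupC _) j z'
    rw [h2, dz', cup_zero_left, cup_zero_right, add_zero]
  -- the cochain `f`
  obtain ⟨β0, hβ0⟩ : ∃ β0, Cc.pull (covD w hw).pr β0 = Cc.d (Cc.cup (i + 1) e z') := by
    apply (covD w hw).exists_desc
    rw [pull_d, pull_cup, fe, fz', cup_add_left, d_add, sq, add_zero]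
  obtain ⟨γ0, hγ0⟩ := conn (β := Cc.cup (i + 1) z z) hC hβ0 (by
    rw [pull_cup, pull_cup, fe, fz', cup_add_left, ← add_assoc, cc_add_self, zero_add, hz'])
  -- the cochain `q e`
  have hq : Cc.d (Cc.cup i e e + Cc.cup (i + 1) e (Cc.d e)) =
      Cc.cup (i + 1) (Cc.d e) (Cc.d e) := CupC.d_q (Cc.cupC _) i e
  have hq2 : (Cc.cup i (e + z') (e + z') + Cc.cup (i + 1) (e + z') (Cc.d (e + z'))) +
      (Cc.cup i e e + Cc.cup (i + 1) e (Cc.d e)) +
      (Cc.cup i z' z' + Cc.cup (i + 1) z' (Cc.d z')) =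
      Cc.d (Cc.cup (i + 1) e z') + Cc.cup (i + 1) (Cc.d e) z' + Cc.cup (i + 1) z' (Cc.d e) :=
    CupC.q_add (Cc.cupC _) i e z'
  rw [d_add, dz', cup_zero_right, add_zero, add_zero] at hq2
  have hc1 : Cc.pull (covD w hw).pr (Cc.cup (i + 1) (Cc.cup 1 w z) (Cc.cup 1 w z)) =
      Cc.d (Cc.cup i e e + Cc.cup (i + 1) e (Cc.d e)) := by
    rw [hq, pull_cup, ← de]
  have hc2 : (Cc.cup i e e + Cc.cup (i + 1) e (Cc.d e)) +
      Cc.pull (covD w hw).fl (Cc.cup i e e + Cc.cup (i + 1) e (Cc.d e)) =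
      Cc.pull (covD w hw).pr (Cc.cup i z z + Cc.cup (i + 1) (Cc.cup 1 w z) z +
        Cc.cup (i + 1) z (Cc.cup 1 w z) + β0) := by
    have g1 : Cc.pull (covD w hw).pr (Cc.cup i z z + Cc.cup (i + 1) (Cc.cup 1 w z) z +
        Cc.cup (i + 1) z (Cc.cup 1 w z) + β0) = Cc.cup i z' z' + Cc.cup (i + 1) (Cc.d e) z' +
        Cc.cup (i + 1) z' (Cc.d e) + Cc.d (Cc.cup (i + 1) e z') := by
      rw [pull_add, pull_add, pull_add, hβ0, pull_cup, pull_cup (covD w hw).pr (i + 1),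
        pull_cup (covD w hw).pr (i + 1), ← de, ← hz']
    have g2 : Cc.pull (covD w hw).fl (Cc.cup i e e + Cc.cup (i + 1) e (Cc.d e)) =
        Cc.cup i (e + z') (e + z') + Cc.cup (i + 1) (e + z') (Cc.d e) := by
      rw [pull_add, pull_cup, pull_cup, pull_d, fe, d_add, dz', add_zero]
    rw [g1, g2]
    have e1 := cc_add_self (Cc.cup i z' z')
    calc Cc.cup i e e + Cc.cup (i + 1) e (Cc.d e) + (Cc.cup i (e + z') (e + z') +
          Cc.cup (i + 1) (e + z') (Cc.d e))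
        = (Cc.cup i (e + z') (e + z') + Cc.cup (i + 1) (e + z') (Cc.d e) +
            (Cc.cup i e e + Cc.cup (i + 1) e (Cc.d e)) + Cc.cup i z' z') + Cc.cup i z' z' := by
          rw [add_assoc _ (Cc.cup i z' z'), e1, add_zero, add_comm]
      _ = _ := by rw [hq2]; abel
  obtain ⟨γ, hγ⟩ := conn hC hc1 hc2
  -- conclusion
  have hcm : Cc.d (Cc.cup (i + 2) (Cc.cup 1 w z) z) =
      Cc.cup (i + 1) (Cc.cup 1 w z) z + Cc.cup (i + 1) z (Cc.cup 1 w z) := by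
    rw [d_cup, hwz, hz, cup_zero_left, cup_zero_right, zero_add, zero_add]
  have a1 : Chh (Cc.cup (i + 1) (Cc.cup 1 w z) (Cc.cup 1 w z))
      (Cc.cup 1 w (Cc.cup i z z + Cc.cup (i + 1) (Cc.cup 1 w z) z +
        Cc.cup (i + 1) z (Cc.cup 1 w z) + β0)) := ⟨γ, hγ⟩
  refine a1.trans ?_
  rw [← cup_add_right]
  refine Chh.cup_left hw ?_
  have a2 : Chh β0 (Cc.cup 1 w (Cc.cup (i + 1) z z)) := ⟨γ0, hγ0⟩
  refine Chh.add ?_ a2
  rw [add_assoc, ← hcm]
  refine ⟨Cc.cup (i + 2) (Cc.cup 1 w z) z, ?_⟩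
  have e1 := cc_add_self (Cc.cup i z z)
  calc _ = (Cc.cup i z z + Cc.cup i z z) + Cc.d (Cc.cup (i + 2) (Cc.cup 1 w z) z) := by abel
    _ = _ := by rw [e1, zero_add]

theorem pw_succ' (u : Cc X) (n : ℕ) : Cc.pw u (n + 1) = Cc.cup 1 u (Cc.pw u n) := by
  induction n with
  | zero =>
    show Cc.cup 1 (Cc.one X) u = Cc.cup 1 u (Cc.one X)
    rw [cup_one, one_cup]
  | succ n ih =>
    have h1 : Cc.pw u (n + 1 + 1) = Cc.cup 1 (Cc.pw u (n + 1)) u := rfl
    have h2 : Cc.pw u (n + 1) = Cc.cup 1 (Cc.pw u n) u := rfl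
    rw [h1, ih, cup_assoc, ← h2, ih]

theorem w_pw (w y : Cc X) (n : ℕ) :
    Cc.cup 1 w (Cc.cup 1 (Cc.pw w n) y) = Cc.cup 1 (Cc.pw w (n + 1)) y := by
  rw [pw_succ', cup_assoc]

theorem cup_nsmul (u v : Cc X) (n : ℕ) : Cc.cup 1 u (n • v) = n • Cc.cup 1 u v := by
  induction n with
  | zero => rw [zero_smul, zero_smul, cup_zero_right]
  | succ n ih => rw [succ_nsmul, succ_nsmul, cup_add_right, ih]

theorem cup_sum {ι : Type} (s : Finset ι) (u : Cc X) (f : ι → Cc X) :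
    Cc.cup 1 u (∑ i ∈ s, f i) = ∑ i ∈ s, Cc.cup 1 u (f i) := by
  classical
  induction s using Finset.induction_on with
  | empty => rw [sum_empty, sum_empty, cup_zero_right]
  | insert a s ha ih => rw [sum_insert ha, sum_insert ha, cup_add_right, ih]

theorem d_pwz (hw : Cc.d w = 0) (hz : Cc.d z = 0) (a : ℕ) :
    Cc.d (Cc.cup 1 (Cc.pw w a) z) = 0 := by
  rw [d_cup_one, Cc.d_pw hw, hz, cup_zero_left, cup_zero_right, add_zero]

/-- the squares of `w^a z` -/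
theorem cup_pwz (h1 : Cc.IsDeg 1 w) (hw : Cc.d w = 0) (hz : Cc.d z = 0) (a : ℕ) :
    ∀ j : ℕ, Chh (Cc.cup j (Cc.cup 1 (Cc.pw w a) z) (Cc.cup 1 (Cc.pw w a) z))
      (∑ i ∈ range (a + 1), a.choose i •
        Cc.cup 1 (Cc.pw w (2 * a - i)) (Cc.cup (j - i) z z)) := by
  induction a with
  | zero =>
    intro j
    refine Chh.of_eq ?_
    rw [sum_range_succ, sum_range_zero, zero_add, Nat.choose_self, one_smul]
    show Cc.cup j (Cc.cup 1 (Cc.one X) z) (Cc.cup 1 (Cc.one X) z) =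
      Cc.cup 1 (Cc.one X) (Cc.cup (j - 0) z z)
    rw [one_cup, one_cup, Nat.sub_zero]
  | succ a ih =>
    intro j
    cases j with
    | zero =>
      refine Chh.of_eq ?_
      rw [cup_zero]
      symm
      refine sum_eq_zero fun i _ => ?_
      rw [Nat.zero_sub, cup_zero, cup_zero_right, smul_zero]
    | succ j =>
      have e0 : Cc.cup 1 (Cc.pw w (a + 1)) z = Cc.cup 1 w (Cc.cup 1 (Cc.pw w a) z) := by
        rw [pw_succ', cup_assoc]
      rw [e0]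
      refine (cup_wz h1 hw (d_pwz hw hz a) j).trans ?_
      refine (((ih j).cup_left hw).add (((ih (j + 1)).cup_left hw).cup_left hw)).trans
        (Chh.of_eq ?_)
      rw [cup_sum, cup_sum, cup_sum]
      have e1 : ∑ i ∈ range (a + 1), Cc.cup 1 w (a.choose i •
          Cc.cup 1 (Cc.pw w (2 * a - i)) (Cc.cup (j - i) z z)) =
          ∑ i ∈ range (a + 1), a.choose i •
            Cc.cup 1 (Cc.pw w (2 * a + 1 - i)) (Cc.cup (j - i) z z) := by
        refine sum_congr rfl fun i hi => ?_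
        rw [mem_range] at hi
        rw [cup_nsmul, w_pw, show 2 * a - i + 1 = 2 * a + 1 - i by omega]
      have e2 : ∑ i ∈ range (a + 1), Cc.cup 1 w (Cc.cup 1 w (a.choose i •
          Cc.cup 1 (Cc.pw w (2 * a - i)) (Cc.cup (j + 1 - i) z z))) =
          ∑ i ∈ range (a + 1), a.choose i •
            Cc.cup 1 (Cc.pw w (2 * (a + 1) - i)) (Cc.cup (j + 1 - i) z z) := by
        refine sum_congr rfl fun i hi => ?_
        rw [mem_range] at hi
        rw [cup_nsmul, w_pw, cup_nsmul, w_pw, show 2 * a - i + 1 + 1 = 2 * (a + 1) - i by omega]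
      have e3 : ∑ i ∈ range (a + 1), a.choose i •
            Cc.cup 1 (Cc.pw w (2 * (a + 1) - i)) (Cc.cup (j + 1 - i) z z) =
          ∑ i ∈ range (a + 1 + 1), a.choose i •
            Cc.cup 1 (Cc.pw w (2 * (a + 1) - i)) (Cc.cup (j + 1 - i) z z) := by
        rw [sum_range_succ _ (a + 1), Nat.choose_succ_self, zero_smul, add_zero]
      rw [e1, e2, e3, sum_range_succ' _ (a + 1), sum_range_succ' _ (a + 1), ← add_assoc,
        ← sum_add_distrib, Nat.choose_zero_right, Nat.choose_zero_right]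
      congr 1
      refine sum_congr rfl fun i hi => ?_
      rw [mem_range] at hi
      rw [Nat.choose_succ_succ, add_smul, show 2 * (a + 1) - (i + 1) = 2 * a + 1 - i by omega,
        Nat.add_sub_add_right]

theorem odd_choose (k : ℕ) : ∀ i : ℕ, i ≤ 2 ^ k - 1 → Odd ((2 ^ k - 1).choose i) := by
  intro i
  induction i with
  | zero => intro _; rw [Nat.choose_zero_right]; exact odd_one
  | succ i ih =>
    intro h
    have h1 := ih (by omega)
    have h2 : 2 ∣ (2 ^ k).choose (i + 1) :=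
      Nat.Prime.dvd_choose_pow Nat.prime_two (by omega) (by omega)
    have h3 : 2 ^ k = (2 ^ k - 1) + 1 := by omega
    rw [h3, Nat.choose_succ_succ'] at h2
    rw [Nat.odd_iff] at h1 ⊢
    omega

theorem odd_nsmul {n : ℕ} (h : Odd n) (x : Cc X) : n • x = x := by
  obtain ⟨m, rfl⟩ := h
  rw [add_smul, one_smul, mul_comm, mul_smul, two_nsmul, cc_add_self, smul_zero, zero_add]

/-- the top square of `w^a z` for `a = 2^k - 1` -/
theorem top_pwz (h1 : Cc.IsDeg 1 w) (hw : Cc.d w = 0) (hz : Cc.d z = 0) (k : ℕ) :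
    Chh (Cc.cup (2 ^ (k + 1) - 1) (Cc.cup 1 (Cc.pw w (2 ^ k - 1)) z)
        (Cc.cup 1 (Cc.pw w (2 ^ k - 1)) z))
      (∑ i ∈ range (2 ^ k), Cc.cup 1 (Cc.pw w (2 ^ k - 1 + i))
        (Cc.cup (2 ^ k - 1 + i + 1) z z)) := by
  refine (cup_pwz h1 hw hz (2 ^ k - 1) (2 ^ (k + 1) - 1)).trans (Chh.of_eq ?_)
  have hp : 0 < 2 ^ k := Nat.two_pow_pos k
  have hp2 : 2 ^ (k + 1) = 2 * 2 ^ k := by rw [pow_succ, mul_comm]
  rw [show 2 ^ k - 1 + 1 = 2 ^ k by omega]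
  rw [← sum_range_reflect]
  refine sum_congr rfl fun i hi => ?_
  rw [mem_range] at hi
  rw [odd_nsmul (odd_choose k _ (by omega))]
  rw [show 2 * (2 ^ k - 1) - (2 ^ k - 1 - i) = 2 ^ k - 1 + i by omega,
    show 2 ^ (k + 1) - 1 - (2 ^ k - 1 - i) = 2 ^ k - 1 + i + 1 by omega]

/-- the Cartan identity -/
theorem cartan (h1 : Cc.IsDeg 1 w) (hw : Cc.d w = 0) (hz : Cc.d z = 0) (s : ℕ) :
    (Cc.cupC X).Coh (∑ i ∈ range (2 ^ s - 1), Cc.cup 1 (Cc.pw w i) (Cc.cup (i + 1) z z) : Cc X)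
      (∑ k ∈ range s, Cc.cup (2 ^ (k + 1) - 1) (Cc.cup 1 (Cc.pw w (2 ^ k - 1)) z)
        (Cc.cup 1 (Cc.pw w (2 ^ k - 1)) z) : Cc X) := by
  refine Chh.coh ?_
  induction s with
  | zero => exact Chh.refl _
  | succ s ih =>
    have hp : 0 < 2 ^ s := Nat.two_pow_pos s
    have hp2 : 2 ^ (s + 1) = 2 * 2 ^ s := by rw [pow_succ, mul_comm]
    rw [show 2 ^ (s + 1) - 1 = (2 ^ s - 1) + 2 ^ s by omega, sum_range_add, sum_range_succ _ s]
    exact ih.add (top_pwz h1 hw hz s).symm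

end Vale.Agent.P263.FR.H285
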