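import Vale.Agent.P263.KJ.DCov

/-!
# P263, V5-E3: the double cover of a cocycle of degree one

`Cc.cov w` : the double cover of `X` of a cocycle `w` of degree `1`; `covD`, `cl_cov`.
`DCov.Cl.conn` : the connecting lemma.
-/

open Finset

namespace Vale.Agent.P263.FR.H285

open Vale.Agent.P263.S Vale.Agent.P263.E Vale.Agent.P263.H83 Vale.Agent.P263.TJ
open Vale.Agent.P263.KJ

/-- the edge from the vertex `0` to the vertex `i` -/
def ed (p : ℕ) (i : Fin (p + 1)) : Op 1 p where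
  toFun x := if x = 0 then 0 else i
  monotone' x y h := by
    by_cases hx : x = 0
    · simp only [if_pos hx]
      exact Fin.zero_le _
    · have hy : y ≠ 0 := by
        rintro rfl
        exact hx (le_antisymm h (Fin.zero_le _))
      simp only [if_neg hx, if_neg hy]
      exact le_refl _

theorem ed_zero (p : ℕ) (i : Fin (p + 1)) : ed p i 0 = 0 := rfl

theorem ed_one (p : ℕ) (i : Fin (p + 1)) : ed p i 1 = i := rfl

theorem op1_ext {q : ℕ} {f g : Op 1 q} (h0 : f 0 = g 0) (h1 : f 1 = g 1) : f = g := by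
  apply OrderHom.ext
  funext x
  match x with
  | ⟨0, _⟩ => exact h0
  | ⟨1, _⟩ => exact h1

/-- the triangle of three vertices -/
def tri (q : ℕ) (a b c : Fin (q + 1)) (h : a ≤ b) (h' : b ≤ c) : Op 2 q where
  toFun x := if x = 0 then a else if x = 1 then b else c
  monotone' x y hxy := by
    have h2 := h.trans h'
    match x, y, hxy with
    | ⟨0, _⟩, ⟨0, _⟩, _ => exact le_refl _
    | ⟨0, _⟩, ⟨1, _⟩, _ => exact h
    | ⟨0, _⟩, ⟨2, _⟩, _ => exact h2
    | ⟨1, _⟩, ⟨1, _⟩, _ => exact le_refl _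
    | ⟨1, _⟩, ⟨2, _⟩, _ => exact h'
    | ⟨2, _⟩, ⟨2, _⟩, _ => exact le_refl _
    | ⟨1, _⟩, ⟨0, _⟩, h3 => exact absurd h3 (by simp)
    | ⟨2, _⟩, ⟨0, _⟩, h3 => exact absurd h3 (by simp)
    | ⟨2, _⟩, ⟨1, _⟩, h3 => exact absurd h3 (by simp [Fin.le_def])

variable {X : SS} {w : Cc X}

/-- the cocycle condition on a triangle -/
theorem coc3 (hw : Cc.d w = 0) {q : ℕ} (x : X.obj q) (a b c : Fin (q + 1)) (h : a ≤ b)
    (h' : b ≤ c) {e1 e2 e3 : Op 1 q} (h10 : e1 0 = b) (h11 : e1 1 = c) (h20 : e2 0 = a)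
    (h21 : e2 1 = c) (h30 : e3 0 = a) (h31 : e3 1 = b) :
    w 1 (X.map e1 x) + w 1 (X.map e2 x) + w 1 (X.map e3 x) = 0 := by
  have h0 : Cc.d w 2 (X.map (tri q a b c h h') x) = 0 := by
    rw [hw]; rfl
  rw [d_succ_apply, sum_range_succ, sum_range_succ, sum_range_succ, sum_range_zero, zero_add] at h0
  rw [← X.map_comp, ← X.map_comp, ← X.map_comp] at h0
  have g1 : (tri q a b c h h').comp (dl 1 0) = e1 := op1_ext h10.symm h11.symm
  have g2 : (tri q a b c h h').comp (dl 1 1) = e2 := op1_ext h20.symm h21.symm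
  have g3 : (tri q a b c h h').comp (dl 1 2) = e3 := op1_ext h30.symm h31.symm
  rw [g1, g2, g3] at h0
  exact h0

theorem w_deg (hw : Cc.d w = 0) {q : ℕ} (x : X.obj q) : w 1 (X.map (ed q 0) x) = 0 := by
  have h := coc3 hw x 0 0 0 le_rfl le_rfl (e1 := ed q 0) (e2 := ed q 0) (e3 := ed q 0)
    rfl rfl rfl rfl rfl rfl
  rw [CharTwo.add_self_eq_zero, zero_add] at h
  exact h

theorem w_comp (hw : Cc.d w = 0) {p q : ℕ} (f : Op p q) (x : X.obj q) (i : Fin (p + 1)) :
    w 1 (X.map (ed q (f 0)) x) + w 1 (X.map (ed p i) (X.map f x)) =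
      w 1 (X.map (ed q (f i)) x) := by
  rw [← X.map_comp]
  have h := coc3 hw x 0 (f 0) (f i) (Fin.zero_le _) (f.monotone (Fin.zero_le _))
    (e1 := f.comp (ed p i)) (e2 := ed q (f i)) (e3 := ed q (f 0)) rfl rfl rfl rfl rfl rfl
  have e := CharTwo.add_self_eq_zero (w 1 (X.map (ed q (f i)) x))
  calc w 1 (X.map (ed q (f 0)) x) + w 1 (X.map (f.comp (ed p i)) x)
      = (w 1 (X.map (f.comp (ed p i)) x) + w 1 (X.map (ed q (f i)) x) +
          w 1 (X.map (ed q (f 0)) x)) + w 1 (X.map (ed q (f i)) x) := by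
        rw [← add_zero (w 1 (X.map (ed q (f 0)) x) + _), ← e]; abel
    _ = _ := by rw [h, zero_add]

/-- the double cover of a cocycle of degree one -/
def cov (w : Cc X) (hw : Cc.d w = 0) : SS where
  obj p := X.obj p × ZMod 2
  map {p q} f x := (X.map f x.1, x.2 + w 1 (X.map (ed q (f 0)) x.1))
  map_id {p} x := by
    refine Prod.ext (X.map_id x.1) ?_
    show x.2 + w 1 (X.map (ed p 0) x.1) = x.2
    rw [w_deg hw, add_zero]
  map_comp {p q r} f g x := by
    refine Prod.ext (X.map_comp f g x.1) ?_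
    show x.2 + w 1 (X.map (ed r (f (g 0))) x.1) =
      x.2 + w 1 (X.map (ed r (f 0)) x.1) + w 1 (X.map (ed q (g 0)) (X.map f x.1))
    rw [add_assoc, w_comp hw]

/-- the double cover of a cocycle of degree one -/
def covD (w : Cc X) (hw : Cc.d w = 0) : DCov (cov w hw) X where
  pr := ⟨fun x => x.1, fun _ _ => rfl⟩
  fl := ⟨fun x => (x.1, x.2 + 1), fun {p q} f x => by
    refine Prod.ext rfl ?_
    show x.2 + w 1 (X.map (ed q (f 0)) x.1) + 1 = x.2 + 1 + w 1 (X.map (ed q (f 0)) x.1)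
    abel⟩
  surj b := ⟨(b, 0), rfl⟩
  pr_fl _ := rfl
  eq_or {p e e'} h := by
    obtain ⟨x, a⟩ := e
    obtain ⟨x', a'⟩ := e'
    have h1 : x' = x := h
    subst h1
    have h2 : ∀ a a' : ZMod 2, a' = a ∨ a' = a + 1 := by decide
    rcases h2 a a' with h3 | h3
    · exact Or.inl (Prod.ext rfl h3)
    · exact Or.inr (Prod.ext rfl h3)
  fl_ne e h := by
    have h1 : e.2 + 1 = e.2 := congrArg Prod.snd h
    have h2 : ∀ a : ZMod 2, a + 1 ≠ a := by decide
    exact h2 _ h1

/-- the section -/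
def covS (w : Cc X) (hw : Cc.d w = 0) : Cc (cov w hw)
  | 0, x => x.2
  | _ + 1, _ => 0

theorem cl_cov (h1 : Cc.IsDeg 1 w) (hw : Cc.d w = 0) : (covD w hw).Cl w (covS w hw) where
  deg_w := h1
  d_w := hw
  deg_s := by
    intro p hp x
    cases p with
    | zero => exact absurd rfl hp
    | succ p => rfl
  fl_s := by
    funext p x
    cases p with
    | zero => rfl
    | succ p =>
      show (0 : ZMod 2) = 0 + (if p + 1 = 0 then 1 else 0)
      rw [if_neg (Nat.succ_ne_zero p), add_zero]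
  pull_w := by
    funext p x
    match p, x with
    | 0, x =>
      rw [d_zero_apply]
      exact h1 0 (by decide) _
    | 1, x =>
      rw [d_succ_apply, sum_range_succ, sum_range_succ, sum_range_zero, zero_add]
      show w 1 x.1 = (x.2 + w 1 (X.map (ed 1 (dl 0 0 0)) x.1)) +
        (x.2 + w 1 (X.map (ed 1 (dl 0 1 0)) x.1))
      have g1 : ed 1 (dl 0 0 0) = OrderHom.id := op1_ext rfl rfl
      have g2 : (dl 0 1 0 : Fin 2) = 0 := rfl
      rw [g1, g2, X.map_id, w_deg hw, add_zero]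
      have e := CharTwo.add_self_eq_zero x.2
      calc w 1 x.1 = w 1 x.1 + (x.2 + x.2) := by rw [e, add_zero]
        _ = _ := by abel
    | p + 2, x =>
      have h2 : Cc.IsDeg 0 (covS w hw) := by
        intro p hp x
        cases p with
        | zero => exact absurd rfl hp
        | succ p => rfl
      rw [h2.d (p + 2) (by omega) x]
      exact h1 (p + 2) (by omega) _

variable {E B : SS} {D : DCov E B} {s : Cc E} {v : Cc B}

theorem pull_fl_pr (β : Cc B) : Cc.pull D.fl (Cc.pull D.pr β) = Cc.pull D.pr β := by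
  funext p e
  exact congrArg (β p) (D.pr_fl e)

/-- the connecting lemma -/
theorem conn (h : D.Cl v s) {α β : Cc B} {c : Cc E} (h1 : Cc.pull D.pr α = Cc.d c)
    (h2 : c + Cc.pull D.fl c = Cc.pull D.pr β) : ∃ γ, α + Cc.cup 1 v β = Cc.d γ := by
  have hβ : Cc.d β = 0 := by
    apply D.d_of_pull
    rw [← h2, d_add, ← pull_d, ← h1, pull_fl_pr, cc_add_self]
  have h3 : Cc.pull D.fl (c + Cc.cup 1 s (Cc.pull D.pr β)) =
      c + Cc.cup 1 s (Cc.pull D.pr β) := by
    rw [pull_add, pull_cup, h.fl_s, pull_fl_pr, cup_add_left, one_cup, ← h2]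
    have e := cc_add_self (Cc.pull D.fl c)
    calc Cc.pull D.fl c + (Cc.cup 1 s (c + Cc.pull D.fl c) + (c + Cc.pull D.fl c))
        = c + Cc.cup 1 s (c + Cc.pull D.fl c) + (Cc.pull D.fl c + Cc.pull D.fl c) := by abel
      _ = _ := by rw [e, add_zero]
  obtain ⟨γ, hγ⟩ := D.exists_desc h3
  refine ⟨γ, D.pull_inj ?_⟩
  rw [pull_add, pull_cup, pull_d, hγ, d_add, d_cup_one, ← pull_d, hβ, pull_zero, cup_zero_right,
    add_zero, h1, h.pull_w]

end Vale.Agent.P263.FR.H285
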